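import Vale.Agent.H89.P331.Main

namespace Vale.Agent.Results.P331.A_LogRank

open Vale.Agent.H89.P331
open scoped ENNReal

/-- Every finite matroid whose independent sets have at most `k` elements admits a
measurable online rule, using one sample per element and a finite uniform seed, that is
`1 / (4 * ⌈log₂ k⌉ + 10)`-competitive against the almighty adversary. -/
theorem result {E : Type} [Fintype E] (M : Matroid E) (k : ℕ)
    (hk : ∀ I : Finset E, M.Indep (↑I : Set E) → I.card ≤ k) :
    ∃ (R : Type) (_ : Fintype R) (_ : Nonempty R) (rule : OnlineRule E R),
      IsMeasurableRule rule ∧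
        Competitive M rule (1 / (4 * (Nat.clog 2 k : ℝ≥0∞) + 10)) :=
  logRank_competitive M k hk

end Vale.Agent.Results.P331.A_LogRank
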