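import Vale.Agent.H89.P331.Main

namespace Vale.Agent.Results.P331.B_LogRankAndRankForm

open Vale.Agent.H89.P331
open scoped ENNReal

/-- (1) Every finite matroid whose independent sets have at most `k` elements admits a
measurable online rule, using one sample per element and a finite uniform seed, that is
`1 / (4 * ⌈log₂ k⌉ + 10)`-competitive against the almighty adversary.
(2) The same with `k` the rank of the matroid (`M.eRank.toNat`, the common size of its bases);
this is the case `k = rank M` of (1). -/
theorem result :
    (∀ {E : Type} [Fintype E] (M : Matroid E) (k : ℕ),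
      (∀ I : Finset E, M.Indep (↑I : Set E) → I.card ≤ k) →
      ∃ (R : Type) (_ : Fintype R) (_ : Nonempty R) (rule : OnlineRule E R),
        IsMeasurableRule rule ∧
          Competitive M rule (1 / (4 * (Nat.clog 2 k : ℝ≥0∞) + 10))) ∧
    (∀ {E : Type} [Fintype E] (M : Matroid E),
      ∃ (R : Type) (_ : Fintype R) (_ : Nonempty R) (rule : OnlineRule E R),
        IsMeasurableRule rule ∧
          Competitive M rule (1 / (4 * (Nat.clog 2 M.eRank.toNat : ℝ≥0∞) + 10))) := by
  refine ⟨fun M k hk => logRank_competitive M k hk, fun {E} _ M => ?_⟩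
  refine logRank_competitive M M.eRank.toNat (fun I hI => ?_)
  have h1 : (↑I : Set E).encard ≤ M.eRank := hI.encard_le_eRank
  have h2 : M.eRank ≠ ⊤ := by
    have h3 : M.eRank ≤ M.E.encard := M.eRank_le_encard_ground
    have h4 : M.E.encard ≠ ⊤ := by
      rw [Set.encard_ne_top_iff]
      exact Set.toFinite _
    exact ne_top_of_le_ne_top h4 h3
  rw [Set.encard_coe_eq_coe_finsetCard] at h1
  have h5 : ((I.card : ℕ) : ℕ∞) ≤ ((M.eRank.toNat : ℕ) : ℕ∞) := by
    rw [ENat.natCast_toNat h2]
    exact h1
  exact_mod_cast h5

end Vale.Agent.Results.P331.B_LogRankAndRankForm
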